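import Mathlib
import Crest.Prelude.Def_QuadricHamiltonian

/-!
Explicit Hamiltonian isotopy of the quadric threefold with exactly three fixed points: definitions
and smoothness.
-/

set_option autoImplicit false

namespace Crest.Agent.H18.Quadric

open Crest.GeometryTopology.Quadric

abbrev E := Fin 5 → ℂ

@[fun_prop]
theorem contDiff_re' {F : Type*} [NormedAddCommGroup F] [NormedSpace ℝ F] {n : WithTop ℕ∞}
    {f : F → ℂ} (hf : ContDiff ℝ n f) : ContDiff ℝ n (fun x => (f x).re) :=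
  Complex.reCLM.contDiff.comp hf

@[fun_prop]
theorem contDiff_im' {F : Type*} [NormedAddCommGroup F] [NormedSpace ℝ F] {n : WithTop ℕ∞}
    {f : F → ℂ} (hf : ContDiff ℝ n f) : ContDiff ℝ n (fun x => (f x).im) :=
  Complex.imCLM.contDiff.comp hf

@[fun_prop]
theorem contDiff_ofReal' {F : Type*} [NormedAddCommGroup F] [NormedSpace ℝ F] {n : WithTop ℕ∞}
    {f : F → ℝ} (hf : ContDiff ℝ n f) : ContDiff ℝ n (fun x => ((f x : ℝ) : ℂ)) :=
  Complex.ofRealCLM.contDiff.comp hf

/-- moment map components -/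
noncomputable def m0 (z : E) : ℝ := 2 * ((z 1).re * (z 2).im - (z 1).im * (z 2).re)
noncomputable def m1 (z : E) : ℝ := 2 * ((z 2).re * (z 0).im - (z 2).im * (z 0).re)
noncomputable def m2 (z : E) : ℝ := 2 * ((z 0).re * (z 1).im - (z 0).im * (z 1).re)
noncomputable def l0 (z : E) : ℝ := 2 * ((z 3).re * (z 0).im - (z 3).im * (z 0).re)
noncomputable def l1 (z : E) : ℝ := 2 * ((z 3).re * (z 1).im - (z 3).im * (z 1).re)
noncomputable def l2 (z : E) : ℝ := 2 * ((z 3).re * (z 2).im - (z 3).im * (z 2).re)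

noncomputable def rr (z : E) : ℝ := m0 z ^ 2 + m1 z ^ 2 + m2 z ^ 2

noncomputable def tau : ℝ := 15 / 8

noncomputable def den (t : ℝ) (z : E) : ℝ := 1 + (t * tau) ^ 2 * rr z

noncomputable def cc (t : ℝ) (z : E) : ℝ := (1 - (t * tau) ^ 2 * rr z) / den t z
noncomputable def ss (t : ℝ) (z : E) : ℝ := 2 * (t * tau) / den t z

theorem rr_nonneg (z : E) : 0 ≤ rr z := by
  unfold rr; positivity

theorem den_pos (t : ℝ) (z : E) : 0 < den t z := by
  have := rr_nonneg z
  unfold den; positivity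

theorem den_ne (t : ℝ) (z : E) : den t z ≠ 0 := (den_pos t z).ne'

/-- real rotation acting on the first three coordinates, with axis vector `m` and coefficients `c`, `s` -/
noncomputable def rot (c s a b d : ℝ) (z : E) : E :=
  ![(c : ℂ) * z 0 + (s : ℂ) * ((b : ℂ) * z 2 - (d : ℂ) * z 1),
    (c : ℂ) * z 1 + (s : ℂ) * ((d : ℂ) * z 0 - (a : ℂ) * z 2),
    (c : ℂ) * z 2 + (s : ℂ) * ((a : ℂ) * z 1 - (b : ℂ) * z 0),
    z 3, z 4]

noncomputable def Rm (t : ℝ) (z : E) : E := rot (cc t z) (ss t z) (m0 z) (m1 z) (m2 z) z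

/-- the four-parameter family of real matrices -/
noncomputable def Gm (p q u v : ℝ) (z : E) : E :=
  ![(p : ℂ) * z 0 + (q : ℂ) * z 3 + (u : ℂ) * z 2 + (v : ℂ) * z 1,
    (p : ℂ) * z 1 - (q : ℂ) * z 2 - (u : ℂ) * z 3 + (v : ℂ) * z 0,
    (p : ℂ) * z 2 + (q : ℂ) * z 1 - (u : ℂ) * z 0 - (v : ℂ) * z 3,
    (p : ℂ) * z 3 - (q : ℂ) * z 0 + (u : ℂ) * z 1 - (v : ℂ) * z 2,
    z 4]

noncomputable def be : ℝ := Real.arccos (4 / 5)
noncomputable def al : ℝ := be + Real.pi

noncomputable def gp (t : ℝ) : ℝ := Real.cos (al * t) * Real.cos (be * t)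
noncomputable def gq (t : ℝ) : ℝ := Real.sin (al * t) * Real.cos (be * t)
noncomputable def gu (t : ℝ) : ℝ := Real.cos (al * t) * Real.sin (be * t)
noncomputable def gv (t : ℝ) : ℝ := Real.sin (al * t) * Real.sin (be * t)

noncomputable def G (t : ℝ) (z : E) : E := Gm (gp t) (gq t) (gu t) (gv t) z
noncomputable def Gi (t : ℝ) (z : E) : E := Gm (gp t) (-gq t) (-gu t) (gv t) z

noncomputable def Psi (x : ℝ × E) : E := G x.1 (Rm x.1 x.2)

theorem contDiff_rr {n : WithTop ℕ∞} : ContDiff ℝ n (fun x : ℝ × E => rr x.2) := by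
  unfold rr m0 m1 m2
  fun_prop

theorem contDiff_den {n : WithTop ℕ∞} : ContDiff ℝ n (fun x : ℝ × E => den x.1 x.2) := by
  unfold den
  have := contDiff_rr (n := n)
  fun_prop

theorem contDiff_cc {n : WithTop ℕ∞} : ContDiff ℝ n (fun x : ℝ × E => cc x.1 x.2) := by
  unfold cc
  have := contDiff_rr (n := n)
  exact ContDiff.div (by fun_prop) contDiff_den (fun x => den_ne _ _)

theorem contDiff_ss {n : WithTop ℕ∞} : ContDiff ℝ n (fun x : ℝ × E => ss x.1 x.2) := by
  unfold ss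
  exact ContDiff.div (by fun_prop) contDiff_den (fun x => den_ne _ _)

theorem contDiff_Rm {n : WithTop ℕ∞} : ContDiff ℝ n (fun x : ℝ × E => Rm x.1 x.2) := by
  have h1 := contDiff_cc (n := n)
  have h2 := contDiff_ss (n := n)
  have h3 : ContDiff ℝ n (fun x : ℝ × E => m0 x.2) := by unfold m0; fun_prop
  have h4 : ContDiff ℝ n (fun x : ℝ × E => m1 x.2) := by unfold m1; fun_prop
  have h5 : ContDiff ℝ n (fun x : ℝ × E => m2 x.2) := by unfold m2; fun_prop
  rw [contDiff_pi]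
  intro i
  unfold Rm rot
  fin_cases i <;> simp <;> fun_prop

theorem contDiff_gp {n : WithTop ℕ∞} : ContDiff ℝ n gp := by unfold gp; fun_prop
theorem contDiff_gq {n : WithTop ℕ∞} : ContDiff ℝ n gq := by unfold gq; fun_prop
theorem contDiff_gu {n : WithTop ℕ∞} : ContDiff ℝ n gu := by unfold gu; fun_prop
theorem contDiff_gv {n : WithTop ℕ∞} : ContDiff ℝ n gv := by unfold gv; fun_prop

theorem contDiff_Gcomp {n : WithTop ℕ∞} {f : ℝ × E → E} (hf : ContDiff ℝ n f) :
    ContDiff ℝ n (fun x : ℝ × E => G x.1 (f x)) := by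
  have h1 := contDiff_gp (n := n)
  have h2 := contDiff_gq (n := n)
  have h3 := contDiff_gu (n := n)
  have h4 := contDiff_gv (n := n)
  have h5 : ∀ i, ContDiff ℝ n (fun x => f x i) := fun i => (contDiff_pi.1 hf) i
  rw [contDiff_pi]
  intro i
  unfold G Gm
  fin_cases i <;> simp <;> fun_prop

theorem contDiff_Gicomp {n : WithTop ℕ∞} {f : ℝ × E → E} (hf : ContDiff ℝ n f) :
    ContDiff ℝ n (fun x : ℝ × E => Gi x.1 (f x)) := by
  have h1 := contDiff_gp (n := n)
  have h2 := contDiff_gq (n := n)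
  have h3 := contDiff_gu (n := n)
  have h4 := contDiff_gv (n := n)
  have h5 : ∀ i, ContDiff ℝ n (fun x => f x i) := fun i => (contDiff_pi.1 hf) i
  rw [contDiff_pi]
  intro i
  unfold Gi Gm
  fin_cases i <;> simp <;> fun_prop

theorem contDiff_Psi {n : WithTop ℕ∞} : ContDiff ℝ n Psi := contDiff_Gcomp contDiff_Rm

end Crest.Agent.H18.Quadric
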