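import Mathlib
import Crest.Agent.H18.Quadric1

/-!
Algebra of the explicit isotopy: the cone is preserved, equivariance under unit scalars.
-/

set_option autoImplicit false

namespace Crest.Agent.H18.Quadric

open Crest.GeometryTopology.Quadric

theorem cone_iff (z : E) : z ∈ unitCone ↔
    ((z 0).re ^ 2 + (z 0).im ^ 2 + (z 1).re ^ 2 + (z 1).im ^ 2 + (z 2).re ^ 2 + (z 2).im ^ 2
      + (z 3).re ^ 2 + (z 3).im ^ 2 + (z 4).re ^ 2 + (z 4).im ^ 2 = 1) ∧
    ((z 0).re ^ 2 + (z 1).re ^ 2 + (z 2).re ^ 2 + (z 3).re ^ 2 + (z 4).re ^ 2 =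
      (z 0).im ^ 2 + (z 1).im ^ 2 + (z 2).im ^ 2 + (z 3).im ^ 2 + (z 4).im ^ 2) ∧
    ((z 0).re * (z 0).im + (z 1).re * (z 1).im + (z 2).re * (z 2).im + (z 3).re * (z 3).im
      + (z 4).re * (z 4).im = 0) := by
  simp only [unitCone, Set.mem_ofPred_eq, herm, Fin.sum_univ_five, Complex.ext_iff,
    Complex.add_re, Complex.add_im, Complex.mul_re, Complex.mul_im, Complex.conj_re,
    Complex.conj_im, Complex.one_re, Complex.one_im, Complex.zero_re, Complex.zero_im, pow_two]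
  constructor
  · rintro ⟨⟨h1, h2⟩, h3, h4⟩
    refine ⟨by linarith, by linarith, by linarith⟩
  · rintro ⟨h1, h2, h3⟩
    refine ⟨⟨by linarith, by ring⟩, by linarith, by linarith⟩

theorem cc_sq (t : ℝ) (z : E) : cc t z ^ 2 + ss t z ^ 2 * rr z = 1 := by
  have h := den_ne t z
  unfold cc ss
  field_simp
  unfold den
  ring

/-- the rotation preserves norms and bilinear products when the axis is orthogonal -/
theorem rot_cone (c s a b d : ℝ) (z : E) (hcs : c ^ 2 + s ^ 2 * (a ^ 2 + b ^ 2 + d ^ 2) = 1)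
    (hre : a * (z 0).re + b * (z 1).re + d * (z 2).re = 0)
    (him : a * (z 0).im + b * (z 1).im + d * (z 2).im = 0)
    (hz : z ∈ unitCone) : rot c s a b d z ∈ unitCone := by
  rw [cone_iff] at hz ⊢
  obtain ⟨h1, h2, h3⟩ := hz
  simp only [rot, Matrix.cons_val_zero, Matrix.cons_val_one, Matrix.cons_val, 
    Complex.add_re, Complex.add_im, Complex.mul_re, Complex.mul_im, Complex.sub_re, Complex.sub_im,
    Complex.ofReal_re, Complex.ofReal_im, zero_mul, sub_zero, add_zero]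
  generalize (z 0).re = p0 at *
  generalize (z 1).re = p1 at *
  generalize (z 2).re = p2 at *
  generalize (z 3).re = p3 at *
  generalize (z 4).re = p4 at *
  generalize (z 0).im = q0 at *
  generalize (z 1).im = q1 at *
  generalize (z 2).im = q2 at *
  generalize (z 3).im = q3 at *
  generalize (z 4).im = q4 at *
  refine ⟨?_, ?_, ?_⟩
  · linear_combination h1 + (p0 ^ 2 + p1 ^ 2 + p2 ^ 2 + q0 ^ 2 + q1 ^ 2 + q2 ^ 2) * hcs
      - s ^ 2 * (a * p0 + b * p1 + d * p2) * hre - s ^ 2 * (a * q0 + b * q1 + d * q2) * him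
  · linear_combination h2 + (p0 ^ 2 + p1 ^ 2 + p2 ^ 2 - q0 ^ 2 - q1 ^ 2 - q2 ^ 2) * hcs
      - s ^ 2 * (a * p0 + b * p1 + d * p2) * hre + s ^ 2 * (a * q0 + b * q1 + d * q2) * him
  · linear_combination h3 + (p0 * q0 + p1 * q1 + p2 * q2) * hcs
      - s ^ 2 * (a * p0 + b * p1 + d * p2) * him

theorem m_perp_re (z : E) : m0 z * (z 0).re + m1 z * (z 1).re + m2 z * (z 2).re = 0 := by
  unfold m0 m1 m2; ring

theorem m_perp_im (z : E) : m0 z * (z 0).im + m1 z * (z 1).im + m2 z * (z 2).im = 0 := by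
  unfold m0 m1 m2; ring

theorem Rm_cone (t : ℝ) (z : E) (hz : z ∈ unitCone) : Rm t z ∈ unitCone := by
  apply rot_cone
  · exact cc_sq t z
  · exact m_perp_re z
  · exact m_perp_im z
  · exact hz

theorem Gm_cone (p q u v : ℝ) (hs : p ^ 2 + q ^ 2 + u ^ 2 + v ^ 2 = 1) (hd : p * v = q * u)
    (z : E) (hz : z ∈ unitCone) : Gm p q u v z ∈ unitCone := by
  rw [cone_iff] at hz ⊢
  obtain ⟨h1, h2, h3⟩ := hz
  simp only [Gm, Matrix.cons_val_zero, Matrix.cons_val_one, Matrix.cons_val, 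
    Complex.add_re, Complex.add_im, Complex.mul_re, Complex.mul_im, Complex.sub_re, Complex.sub_im,
    Complex.ofReal_re, Complex.ofReal_im, zero_mul, sub_zero, add_zero]
  generalize (z 0).re = p0 at *
  generalize (z 1).re = p1 at *
  generalize (z 2).re = p2 at *
  generalize (z 3).re = p3 at *
  generalize (z 4).re = p4 at *
  generalize (z 0).im = q0 at *
  generalize (z 1).im = q1 at *
  generalize (z 2).im = q2 at *
  generalize (z 3).im = q3 at *
  generalize (z 4).im = q4 at *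
  refine ⟨?_, ?_, ?_⟩
  · linear_combination h1 + (p0 ^ 2 + p1 ^ 2 + p2 ^ 2 + p3 ^ 2 + q0 ^ 2 + q1 ^ 2 + q2 ^ 2 + q3 ^ 2) * hs
      + (4 * (p0 * p1 - p2 * p3) + 4 * (q0 * q1 - q2 * q3)) * hd
  · linear_combination h2 + (p0 ^ 2 + p1 ^ 2 + p2 ^ 2 + p3 ^ 2 - q0 ^ 2 - q1 ^ 2 - q2 ^ 2 - q3 ^ 2) * hs
      + (4 * (p0 * p1 - p2 * p3) - 4 * (q0 * q1 - q2 * q3)) * hd
  · linear_combination h3 + (p0 * q0 + p1 * q1 + p2 * q2 + p3 * q3) * hs
      + 2 * (p0 * q1 + p1 * q0 - p2 * q3 - p3 * q2) * hd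

theorem g_sq (t : ℝ) : gp t ^ 2 + gq t ^ 2 + gu t ^ 2 + gv t ^ 2 = 1 := by
  have h1 := Real.sin_sq_add_cos_sq (al * t)
  have h2 := Real.sin_sq_add_cos_sq (be * t)
  unfold gp gq gu gv
  nlinarith [h1, h2]

theorem g_det (t : ℝ) : gp t * gv t = gq t * gu t := by
  unfold gp gq gu gv
  ring

theorem G_cone (t : ℝ) (z : E) (hz : z ∈ unitCone) : G t z ∈ unitCone :=
  Gm_cone _ _ _ _ (g_sq t) (g_det t) z hz

theorem Psi_cone (t : ℝ) (z : E) (hz : z ∈ unitCone) : Psi (t, z) ∈ unitCone :=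
  G_cone t _ (Rm_cone t z hz)

theorem norm_one_sq (c : ℂ) (hc : ‖c‖ = 1) : c.re ^ 2 + c.im ^ 2 = 1 := by
  have h := Complex.sq_norm c
  rw [hc, Complex.normSq_apply] at h
  nlinarith [h]

theorem m0_smul (c : ℂ) (hc : c.re ^ 2 + c.im ^ 2 = 1) (z : E) : m0 (c • z) = m0 z := by
  simp only [m0, Pi.smul_apply, smul_eq_mul, Complex.mul_re, Complex.mul_im]
  linear_combination 2 * ((z 1).re * (z 2).im - (z 1).im * (z 2).re) * hc

theorem m1_smul (c : ℂ) (hc : c.re ^ 2 + c.im ^ 2 = 1) (z : E) : m1 (c • z) = m1 z := by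
  simp only [m1, Pi.smul_apply, smul_eq_mul, Complex.mul_re, Complex.mul_im]
  linear_combination 2 * ((z 2).re * (z 0).im - (z 2).im * (z 0).re) * hc

theorem m2_smul (c : ℂ) (hc : c.re ^ 2 + c.im ^ 2 = 1) (z : E) : m2 (c • z) = m2 z := by
  simp only [m2, Pi.smul_apply, smul_eq_mul, Complex.mul_re, Complex.mul_im]
  linear_combination 2 * ((z 0).re * (z 1).im - (z 0).im * (z 1).re) * hc

theorem l0_smul (c : ℂ) (hc : c.re ^ 2 + c.im ^ 2 = 1) (z : E) : l0 (c • z) = l0 z := by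
  simp only [l0, Pi.smul_apply, smul_eq_mul, Complex.mul_re, Complex.mul_im]
  linear_combination 2 * ((z 3).re * (z 0).im - (z 3).im * (z 0).re) * hc

theorem l1_smul (c : ℂ) (hc : c.re ^ 2 + c.im ^ 2 = 1) (z : E) : l1 (c • z) = l1 z := by
  simp only [l1, Pi.smul_apply, smul_eq_mul, Complex.mul_re, Complex.mul_im]
  linear_combination 2 * ((z 3).re * (z 1).im - (z 3).im * (z 1).re) * hc

theorem l2_smul (c : ℂ) (hc : c.re ^ 2 + c.im ^ 2 = 1) (z : E) : l2 (c • z) = l2 z := by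
  simp only [l2, Pi.smul_apply, smul_eq_mul, Complex.mul_re, Complex.mul_im]
  linear_combination 2 * ((z 3).re * (z 2).im - (z 3).im * (z 2).re) * hc

theorem rr_smul (c : ℂ) (hc : c.re ^ 2 + c.im ^ 2 = 1) (z : E) : rr (c • z) = rr z := by
  unfold rr; rw [m0_smul c hc, m1_smul c hc, m2_smul c hc]

theorem rot_smul (x s a b d : ℝ) (c : ℂ) (z : E) : rot x s a b d (c • z) = c • rot x s a b d z := by
  ext i
  unfold rot
  fin_cases i <;> simp <;> ring

theorem Gm_smul (p q u v : ℝ) (c : ℂ) (z : E) : Gm p q u v (c • z) = c • Gm p q u v z := by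
  ext i
  unfold Gm
  fin_cases i <;> simp <;> ring

theorem Rm_smul (t : ℝ) (c : ℂ) (hc : c.re ^ 2 + c.im ^ 2 = 1) (z : E) : Rm t (c • z) = c • Rm t z := by
  unfold Rm cc ss den
  rw [rr_smul c hc, m0_smul c hc, m1_smul c hc, m2_smul c hc, rot_smul]

theorem Psi_smul (t : ℝ) (c : ℂ) (hc : ‖c‖ = 1) (z : E) : Psi (t, c • z) = c • Psi (t, z) := by
  have h := norm_one_sq c hc
  unfold Psi G
  simp only
  rw [Rm_smul t c h, Gm_smul]

theorem Psi_zero (z : E) : Psi (0, z) = z := by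
  unfold Psi G Rm Gm rot cc ss den gp gq gu gv
  ext i
  fin_cases i <;> simp

/-- transposed matrices are adjoint for the Hermitian form -/
theorem herm_Gm (p q u v : ℝ) (x w : E) :
    herm (Gm p q u v x) w = herm x (Gm p (-q) (-u) v w) := by
  unfold herm Gm
  simp [Fin.sum_univ_five]
  ring

theorem Gm_inv (p q u v : ℝ) (hs : p ^ 2 + q ^ 2 + u ^ 2 + v ^ 2 = 1) (hd : p * v = q * u) (x : E) :
    Gm p (-q) (-u) v (Gm p q u v x) = x := by
  have hs' : (p : ℂ) ^ 2 + (q : ℂ) ^ 2 + (u : ℂ) ^ 2 + (v : ℂ) ^ 2 = 1 := by exact_mod_cast hs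
  have hd' : (p : ℂ) * v = q * u := by exact_mod_cast hd
  ext i
  unfold Gm
  fin_cases i <;> simp
  · linear_combination x 0 * hs' + 2 * x 1 * hd'
  · linear_combination x 1 * hs' + 2 * x 0 * hd'
  · linear_combination x 2 * hs' - 2 * x 3 * hd'
  · linear_combination x 3 * hs' - 2 * x 2 * hd'

theorem Gi_G (t : ℝ) (x : E) : Gi t (G t x) = x := Gm_inv _ _ _ _ (g_sq t) (g_det t) x

end Crest.Agent.H18.Quadric
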