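import Mathlib
import Crest.Agent.H18.Quadric2

/-!
The Hamiltonian and Hamilton's equation.
-/

set_option autoImplicit false

namespace Crest.Agent.H18.Quadric

open Crest.GeometryTopology.Quadric

noncomputable def Lf : ℝ → ℝ := dslope (fun s : ℝ => Real.log (1 + s)) 0

theorem Lf_mul (s : ℝ) : s * Lf s = Real.log (1 + s) := by
  have h := sub_smul_dslope (fun s : ℝ => Real.log (1 + s)) 0 s
  simpa [Lf] using h

theorem Lf_contDiffAt {n : WithTop ℕ∞} (s : ℝ) (hs : 0 ≤ s) : ContDiffAt ℝ n Lf s := by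
  rcases eq_or_ne s 0 with h0 | h0
  · subst h0
    have h1 : AnalyticAt ℝ (fun s : ℝ => Real.log (1 + s)) 0 := by
      have : AnalyticAt ℝ (fun s : ℝ => 1 + s) 0 := by fun_prop
      exact this.log (by norm_num)
    obtain ⟨p, hp⟩ := h1
    have h2 := hp.has_fpower_series_dslope_fslope
    exact (AnalyticAt.contDiffAt ⟨_, h2⟩)
  · have h1 : Lf =ᶠ[nhds s] slope (fun s : ℝ => Real.log (1 + s)) 0 :=
      dslope_eventuallyEq_slope_of_ne _ h0
    refine ContDiffAt.congr_of_eventuallyEq ?_ h1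
    unfold slope
    simp only [sub_zero, vsub_eq_sub, smul_eq_mul]
    refine ContDiffAt.mul (contDiffAt_id.inv h0) (ContDiffAt.sub (ContDiffAt.log (by fun_prop) ?_) contDiffAt_const)
    have : 0 < 1 + s := by positivity
    exact this.ne'

theorem Lf_deriv (s : ℝ) (hs : 0 ≤ s) : ∃ L', HasDerivAt Lf L' s ∧ Lf s + s * L' = 1 / (1 + s) := by
  have h1 : HasDerivAt Lf (deriv Lf s) s :=
    ((Lf_contDiffAt (n := 1) s hs).differentiableAt (by norm_num)).hasDerivAt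
  refine ⟨deriv Lf s, h1, ?_⟩
  have h2 : HasDerivAt (fun s => s * Lf s) (1 * Lf s + s * deriv Lf s) s :=
    (hasDerivAt_id s).mul h1
  have h3 : HasDerivAt (fun s : ℝ => Real.log (1 + s)) (1 / (1 + s)) s := by
    have : HasDerivAt (fun s : ℝ => 1 + s) 1 s := (hasDerivAt_id s).const_add 1
    exact this.log (by positivity)
  have h4 : (fun s => s * Lf s) = fun s : ℝ => Real.log (1 + s) := by
    ext s; exact Lf_mul s
  rw [h4] at h2
  have := h2.unique h3
  linarith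

noncomputable def Hm (x : ℝ × E) : ℝ :=
  al * (m0 x.2 + l0 x.2) + be * (m1 x.2 - l1 x.2)
    + tau * rr (Gi x.1 x.2) * Lf ((x.1 * tau) ^ 2 * rr (Gi x.1 x.2))

theorem contDiff_rrGi {n : WithTop ℕ∞} : ContDiff ℝ n (fun x : ℝ × E => rr (Gi x.1 x.2)) := by
  have h : ContDiff ℝ n (fun x : ℝ × E => Gi x.1 x.2) := contDiff_Gicomp contDiff_snd
  have h1 : ContDiff ℝ n (fun x : E => rr x) := by unfold rr m0 m1 m2; fun_prop
  exact h1.comp h

theorem contDiff_Hm {n : WithTop ℕ∞} : ContDiff ℝ n Hm := by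
  have h1 := contDiff_rrGi (n := n)
  have h2 : ContDiff ℝ n (fun x : ℝ × E => Lf ((x.1 * tau) ^ 2 * rr (Gi x.1 x.2))) := by
    rw [contDiff_iff_contDiffAt]
    intro x
    have h3 : 0 ≤ (x.1 * tau) ^ 2 * rr (Gi x.1 x.2) := mul_nonneg (sq_nonneg _) (rr_nonneg _)
    have h4 : ContDiff ℝ n (fun x : ℝ × E => (x.1 * tau) ^ 2 * rr (Gi x.1 x.2)) := by fun_prop
    exact ContDiffAt.comp x (Lf_contDiffAt _ h3) h4.contDiffAt
  unfold Hm
  have h5 : ContDiff ℝ n (fun x : ℝ × E => al * (m0 x.2 + l0 x.2) + be * (m1 x.2 - l1 x.2)) := by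
    unfold m0 l0 m1 l1
    fun_prop
  exact h5.add ((contDiff_const.mul h1).mul h2)

/-- polarisations -/
noncomputable def dm (i j : Fin 5) (x w : E) : ℝ :=
  2 * ((x i).re * (w j).im + (w i).re * (x j).im - (x i).im * (w j).re - (w i).im * (x j).re)

theorem m0_line (x w : E) (s : ℝ) : m0 (x + s • w) = m0 x + s * dm 1 2 x w + s ^ 2 * m0 w := by
  simp [m0, dm]; ring
theorem m1_line (x w : E) (s : ℝ) : m1 (x + s • w) = m1 x + s * dm 2 0 x w + s ^ 2 * m1 w := by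
  simp [m1, dm]; ring
theorem m2_line (x w : E) (s : ℝ) : m2 (x + s • w) = m2 x + s * dm 0 1 x w + s ^ 2 * m2 w := by
  simp [m2, dm]; ring
theorem l0_line (x w : E) (s : ℝ) : l0 (x + s • w) = l0 x + s * dm 3 0 x w + s ^ 2 * l0 w := by
  simp [l0, dm]; ring
theorem l1_line (x w : E) (s : ℝ) : l1 (x + s • w) = l1 x + s * dm 3 1 x w + s ^ 2 * l1 w := by
  simp [l1, dm]; ring
theorem l2_line (x w : E) (s : ℝ) : l2 (x + s • w) = l2 x + s * dm 3 2 x w + s ^ 2 * l2 w := by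
  simp [l2, dm]; ring

theorem quad_deriv (a b c : ℝ) : HasDerivAt (fun s : ℝ => a + s * b + s ^ 2 * c) b 0 := by
  have h1 : HasDerivAt (fun s : ℝ => s) 1 0 := hasDerivAt_id 0
  have h2 := ((h1.mul_const b).const_add a).add ((h1.pow 2).mul_const c)
  exact h2.congr_deriv (by simp)

theorem rr_line_deriv (x w : E) : HasDerivAt (fun s : ℝ => rr (x + s • w))
    (2 * (m0 x * dm 1 2 x w + m1 x * dm 2 0 x w + m2 x * dm 0 1 x w)) 0 := by
  unfold rr
  simp only [m0_line, m1_line, m2_line]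
  have h0 := (quad_deriv (m0 x) (dm 1 2 x w) (m0 w)).pow 2
  have h1 := (quad_deriv (m1 x) (dm 2 0 x w) (m1 w)).pow 2
  have h2 := (quad_deriv (m2 x) (dm 0 1 x w) (m2 w)).pow 2
  have h3 := (h0.add h1).add h2
  refine h3.congr_deriv ?_
  simp
  ring

theorem Gi_line (t : ℝ) (x w : E) (s : ℝ) : Gi t (x + s • w) = Gi t x + s • Gi t w := by
  unfold Gi Gm
  ext i
  fin_cases i <;> simp <;> ring

theorem Hm_line_deriv (t : ℝ) (x w : E) : HasDerivAt (fun s : ℝ => Hm (t, x + s • w))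
    (al * (dm 1 2 x w + dm 3 0 x w) + be * (dm 2 0 x w - dm 3 1 x w)
      + tau / (1 + (t * tau) ^ 2 * rr (Gi t x)) *
        (2 * (m0 (Gi t x) * dm 1 2 (Gi t x) (Gi t w) + m1 (Gi t x) * dm 2 0 (Gi t x) (Gi t w)
          + m2 (Gi t x) * dm 0 1 (Gi t x) (Gi t w)))) 0 := by
  unfold Hm
  simp only [Gi_line]
  set y := Gi t x with hy
  set w' := Gi t w with hw'
  have h1 : HasDerivAt (fun s : ℝ => al * (m0 (x + s • w) + l0 (x + s • w)) +
      be * (m1 (x + s • w) - l1 (x + s • w)))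
      (al * (dm 1 2 x w + dm 3 0 x w) + be * (dm 2 0 x w - dm 3 1 x w)) 0 := by
    simp only [m0_line, m1_line, l0_line, l1_line]
    exact (((quad_deriv _ _ _).add (quad_deriv _ _ _)).const_mul al).add
      (((quad_deriv _ _ _).sub (quad_deriv _ _ _)).const_mul be)
  have h2 := rr_line_deriv y w'
  have hs : 0 ≤ (t * tau) ^ 2 * rr y := mul_nonneg (sq_nonneg _) (rr_nonneg _)
  obtain ⟨L', hL, hL2⟩ := Lf_deriv _ hs
  have hL0 : HasDerivAt Lf L' ((t * tau) ^ 2 * rr (y + (0 : ℝ) • w')) := by simpa using hL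
  have h3 := h2.const_mul ((t * tau) ^ 2)
  have h4 : HasDerivAt (fun s : ℝ => Lf ((t * tau) ^ 2 * rr (y + s • w'))) _ 0 :=
    HasDerivAt.comp (0 : ℝ) hL0 h3
  have h5 := h1.add (((h2.const_mul tau)).mul h4)
  refine h5.congr_deriv ?_
  simp only [zero_smul, add_zero]
  generalize 2 * (m0 y * dm 1 2 y w' + m1 y * dm 2 0 y w' + m2 y * dm 0 1 y w') = D
  have e : tau / (1 + (t * tau) ^ 2 * rr y) = tau * (1 / (1 + (t * tau) ^ 2 * rr y)) := by ring
  rw [e, ← hL2]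
  ring

theorem fderiv_Hm (t : ℝ) (x w : E) : fderiv ℝ (fun x : E => Hm (t, x)) x w =
    (al * (dm 1 2 x w + dm 3 0 x w) + be * (dm 2 0 x w - dm 3 1 x w)
      + tau / (1 + (t * tau) ^ 2 * rr (Gi t x)) *
        (2 * (m0 (Gi t x) * dm 1 2 (Gi t x) (Gi t w) + m1 (Gi t x) * dm 2 0 (Gi t x) (Gi t w)
          + m2 (Gi t x) * dm 0 1 (Gi t x) (Gi t w)))) := by
  have h1 : ContDiff ℝ 1 (fun x : E => Hm (t, x)) := contDiff_Hm.comp (by fun_prop)
  have h2 : DifferentiableAt ℝ (fun x : E => Hm (t, x)) x := h1.differentiable (by norm_num) x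
  have h3 := h2.hasFDerivAt
  have h4 : HasDerivAt (fun s : ℝ => x + s • w) w 0 := by
    have := ((hasDerivAt_id (0:ℝ)).smul_const w).const_add x
    simpa using this
  have h5 : HasFDerivAt (fun x : E => Hm (t, x)) (fderiv ℝ (fun x : E => Hm (t, x)) x)
      (x + (0 : ℝ) • w) := by simpa using h3
  have h6 := h5.comp_hasDerivAt (0 : ℝ) h4
  exact h6.unique (Hm_line_deriv t x w)

end Crest.Agent.H18.Quadric
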