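import Mathlib
import Crest.Agent.H18.Quadric3

/-!
Time derivative of the isotopy, and Hamilton's equation.
-/

set_option autoImplicit false

namespace Crest.Agent.H18.Quadric

open Crest.GeometryTopology.Quadric

/-- generator of the linear part -/
noncomputable def Ym (x : E) : E :=
  ![(al : ℂ) * x 3 + (be : ℂ) * x 2, -(al : ℂ) * x 2 - (be : ℂ) * x 3,
    (al : ℂ) * x 1 - (be : ℂ) * x 0, -(al : ℂ) * x 0 + (be : ℂ) * x 1, 0]

/-- cross product with a real vector, on the first three coordinates -/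
noncomputable def crossR (o a b d : ℝ) (z : E) : E :=
  ![(o : ℂ) * ((b : ℂ) * z 2 - (d : ℂ) * z 1),
    (o : ℂ) * ((d : ℂ) * z 0 - (a : ℂ) * z 2),
    (o : ℂ) * ((a : ℂ) * z 1 - (b : ℂ) * z 0), 0, 0]

theorem gp_deriv (t : ℝ) : HasDerivAt gp (-al * gq t - be * gu t) t := by
  have h1 : HasDerivAt (fun s : ℝ => al * s) al t := by simpa using (hasDerivAt_id t).const_mul al
  have h2 : HasDerivAt (fun s : ℝ => be * s) be t := by simpa using (hasDerivAt_id t).const_mul be
  exact (h1.cos.mul h2.cos).congr_deriv (by unfold gq gu; ring)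

theorem gq_deriv (t : ℝ) : HasDerivAt gq (al * gp t - be * gv t) t := by
  have h1 : HasDerivAt (fun s : ℝ => al * s) al t := by simpa using (hasDerivAt_id t).const_mul al
  have h2 : HasDerivAt (fun s : ℝ => be * s) be t := by simpa using (hasDerivAt_id t).const_mul be
  exact (h1.sin.mul h2.cos).congr_deriv (by unfold gp gv; ring)

theorem gu_deriv (t : ℝ) : HasDerivAt gu (-al * gv t + be * gp t) t := by
  have h1 : HasDerivAt (fun s : ℝ => al * s) al t := by simpa using (hasDerivAt_id t).const_mul al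
  have h2 : HasDerivAt (fun s : ℝ => be * s) be t := by simpa using (hasDerivAt_id t).const_mul be
  exact (h1.cos.mul h2.sin).congr_deriv (by unfold gp gv; ring)

theorem gv_deriv (t : ℝ) : HasDerivAt gv (al * gu t + be * gq t) t := by
  have h1 : HasDerivAt (fun s : ℝ => al * s) al t := by simpa using (hasDerivAt_id t).const_mul al
  have h2 : HasDerivAt (fun s : ℝ => be * s) be t := by simpa using (hasDerivAt_id t).const_mul be
  exact (h1.sin.mul h2.sin).congr_deriv (by unfold gq gu; ring)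

theorem den_deriv (t : ℝ) (z : E) : HasDerivAt (fun s => den s z) (2 * t * tau ^ 2 * rr z) t := by
  unfold den
  have h1 : HasDerivAt (fun s : ℝ => s * tau) tau t := by simpa using (hasDerivAt_id t).mul_const tau
  exact (((h1.pow 2).mul_const (rr z)).const_add 1).congr_deriv (by push_cast; ring)

theorem cc_deriv (t : ℝ) (z : E) :
    HasDerivAt (fun s => cc s z) (-(2 * tau / den t z) * rr z * ss t z) t := by
  have h0 := den_ne t z
  have h1 : HasDerivAt (fun s : ℝ => s * tau) tau t := by simpa using (hasDerivAt_id t).mul_const tau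
  have h2 := (((h1.pow 2).mul_const (rr z)).const_sub 1).div (den_deriv t z) h0
  refine h2.congr_deriv ?_
  unfold ss
  field_simp
  unfold den
  simp
  ring

theorem ss_deriv (t : ℝ) (z : E) :
    HasDerivAt (fun s => ss s z) ((2 * tau / den t z) * cc t z) t := by
  have h0 := den_ne t z
  have h1 : HasDerivAt (fun s : ℝ => s * tau) tau t := by simpa using (hasDerivAt_id t).mul_const tau
  have h2 := (h1.const_mul 2).div (den_deriv t z) h0
  refine h2.congr_deriv ?_
  unfold cc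
  field_simp
  unfold den
  ring

theorem m_perp (z : E) : (m0 z : ℂ) * z 0 + (m1 z : ℂ) * z 1 + (m2 z : ℂ) * z 2 = 0 := by
  apply Complex.ext
  · simpa using m_perp_re z
  · simpa using m_perp_im z

theorem Rm_deriv (t : ℝ) (z : E) :
    HasDerivAt (fun s => Rm s z)
      (crossR (2 * tau / den t z) (m0 z) (m1 z) (m2 z) (Rm t z)) t := by
  have hm := m_perp z
  rw [hasDerivAt_pi]
  have hc := (cc_deriv t z).ofReal_comp
  have hs := (ss_deriv t z).ofReal_comp
  have key : ∀ x y : ℂ, HasDerivAt (fun s : ℝ => (cc s z : ℂ) * x + (ss s z : ℂ) * y)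
      ((((-(2 * tau / den t z) * rr z * ss t z : ℝ) : ℂ)) * x +
        (((2 * tau / den t z) * cc t z : ℝ) : ℂ) * y) t := fun x y =>
    (hc.mul_const x).add (hs.mul_const y)
  intro i
  have hrr : (rr z : ℂ) = (m0 z : ℂ) ^ 2 + (m1 z : ℂ) ^ 2 + (m2 z : ℂ) ^ 2 := by
    unfold rr; push_cast; ring
  fin_cases i
  · refine (key (z 0) ((m1 z : ℂ) * z 2 - (m2 z : ℂ) * z 1)).congr_deriv ?_
    simp [crossR, Rm, rot]
    rw [hrr]
    linear_combination (-(2 * tau / den t z : ℂ) * (ss t z : ℂ) * (m0 z : ℂ)) * hm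
  · refine (key (z 1) ((m2 z : ℂ) * z 0 - (m0 z : ℂ) * z 2)).congr_deriv ?_
    simp [crossR, Rm, rot]
    rw [hrr]
    linear_combination (-(2 * tau / den t z : ℂ) * (ss t z : ℂ) * (m1 z : ℂ)) * hm
  · refine (key (z 2) ((m0 z : ℂ) * z 1 - (m1 z : ℂ) * z 0)).congr_deriv ?_
    simp [crossR, Rm, rot]
    rw [hrr]
    linear_combination (-(2 * tau / den t z : ℂ) * (ss t z : ℂ) * (m2 z : ℂ)) * hm
  · simpa [crossR, Rm, rot] using hasDerivAt_const t (z 3)
  · simpa [crossR, Rm, rot] using hasDerivAt_const t (z 4)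

theorem G_deriv {f : ℝ → E} {f' : E} (t : ℝ) (hf : HasDerivAt f f' t) :
    HasDerivAt (fun s => G s (f s)) (Ym (G t (f t)) + G t f') t := by
  rw [hasDerivAt_pi] at hf ⊢
  have hp := (gp_deriv t).ofReal_comp
  have hq := (gq_deriv t).ofReal_comp
  have hu := (gu_deriv t).ofReal_comp
  have hv := (gv_deriv t).ofReal_comp
  intro i
  fin_cases i
  · refine ((((hp.mul (hf 0)).add (hq.mul (hf 3))).add (hu.mul (hf 2))).add (hv.mul (hf 1))).congr_deriv ?_
    simp [Ym, G, Gm]
    ring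
  · refine ((((hp.mul (hf 1)).sub (hq.mul (hf 2))).sub (hu.mul (hf 3))).add (hv.mul (hf 0))).congr_deriv ?_
    simp [Ym, G, Gm]
    ring
  · refine ((((hp.mul (hf 2)).add (hq.mul (hf 1))).sub (hu.mul (hf 0))).sub (hv.mul (hf 3))).congr_deriv ?_
    simp [Ym, G, Gm]
    ring
  · refine ((((hp.mul (hf 3)).sub (hq.mul (hf 0))).add (hu.mul (hf 1))).sub (hv.mul (hf 2))).congr_deriv ?_
    simp [Ym, G, Gm]
    ring
  · refine (hf 4).congr_deriv ?_
    simp [Ym, G, Gm]

theorem Psi_deriv (t : ℝ) (z : E) : HasDerivAt (fun s => Psi (s, z))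
    (Ym (Psi (t, z)) + G t (crossR (2 * tau / den t z) (m0 z) (m1 z) (m2 z) (Rm t z))) t :=
  G_deriv t (Rm_deriv t z)

theorem herm_add_left (a b w : E) : herm (a + b) w = herm a w + herm b w := by
  unfold herm
  rw [← Finset.sum_add_distrib]
  apply Finset.sum_congr rfl
  intro i _
  simp [add_mul]

theorem herm_Ym (x w : E) : 2 * (herm (Ym x) w).im =
    al * (dm 1 2 x w + dm 3 0 x w) + be * (dm 2 0 x w - dm 3 1 x w) := by
  simp [herm, Ym, dm, Fin.sum_univ_five]
  ring

theorem herm_crossR (o a b d : ℝ) (x w : E) : 2 * (herm (crossR o a b d x) w).im =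
    o * (a * dm 1 2 x w + b * dm 2 0 x w + d * dm 0 1 x w) := by
  simp [herm, crossR, dm, Fin.sum_univ_five]
  ring

theorem m_rot (c s : ℝ) (z : E) (hcs : c ^ 2 + s ^ 2 * rr z = 1) :
    m0 (rot c s (m0 z) (m1 z) (m2 z) z) = m0 z ∧
    m1 (rot c s (m0 z) (m1 z) (m2 z) z) = m1 z ∧
    m2 (rot c s (m0 z) (m1 z) (m2 z) z) = m2 z := by
  have e0 : m0 (rot c s (m0 z) (m1 z) (m2 z) z) = (c ^ 2 + s ^ 2 * rr z) * m0 z := by
    simp [rot, rr, m0, m1, m2]; ring
  have e1 : m1 (rot c s (m0 z) (m1 z) (m2 z) z) = (c ^ 2 + s ^ 2 * rr z) * m1 z := by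
    simp [rot, rr, m0, m1, m2]; ring
  have e2 : m2 (rot c s (m0 z) (m1 z) (m2 z) z) = (c ^ 2 + s ^ 2 * rr z) * m2 z := by
    simp [rot, rr, m0, m1, m2]; ring
  rw [e0, e1, e2, hcs]; simp

theorem m_Rm (t : ℝ) (z : E) : m0 (Rm t z) = m0 z ∧ m1 (Rm t z) = m1 z ∧ m2 (Rm t z) = m2 z :=
  m_rot _ _ _ (cc_sq t z)

theorem rr_Rm (t : ℝ) (z : E) : rr (Rm t z) = rr z := by
  obtain ⟨h0, h1, h2⟩ := m_Rm t z
  unfold rr; rw [h0, h1, h2]

theorem hamilton_eq (t : ℝ) (z w : E) :
    2 * (herm (deriv (fun s : ℝ => Psi (s, z)) t) w).im =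
      fderiv ℝ (fun x : E => Hm (t, x)) (Psi (t, z)) w := by
  rw [(Psi_deriv t z).deriv, fderiv_Hm, herm_add_left, Complex.add_im, mul_add, herm_Ym]
  have h1 : Gi t (Psi (t, z)) = Rm t z := Gi_G t _
  rw [h1]
  obtain ⟨h0, h1, h2⟩ := m_Rm t z
  rw [h0, h1, h2, rr_Rm]
  have h3 : herm (G t (crossR (2 * tau / den t z) (m0 z) (m1 z) (m2 z) (Rm t z))) w =
      herm (crossR (2 * tau / den t z) (m0 z) (m1 z) (m2 z) (Rm t z)) (Gi t w) := herm_Gm _ _ _ _ _ _
  rw [h3, herm_crossR]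
  unfold den
  ring

noncomputable def theLift : HamiltonianConeLift where
  Ψ := Psi
  H := Hm
  smooth_Ψ := contDiff_Psi
  smooth_H := contDiff_Hm
  mapsTo_cone := fun t z hz => Psi_cone t z hz
  compatible := fun t z _ c hc => ⟨c, Psi_smul t c hc z⟩
  start := fun z _ => ⟨1, by rw [Psi_zero, one_smul]⟩
  invariant := by
    intro t z _ c hc
    have h := norm_one_sq c hc
    have e : Gi t (c • z) = c • Gi t z := Gm_smul _ _ _ _ _ _
    simp only [Hm]
    rw [e, rr_smul c h, m0_smul c h, m1_smul c h, l0_smul c h, l1_smul c h]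
  hamilton := fun t _ z _ w _ => hamilton_eq t z w

end Crest.Agent.H18.Quadric
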