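import Mathlib
import Crest.Agent.H18.Quadric5

/-!
Fixed lines of the time-one map: necessary conditions, continued.
-/

set_option autoImplicit false
set_option linter.unusedSimpArgs false

namespace Crest.Agent.H18.Quadric

open Crest.GeometryTopology.Quadric

theorem rr_le (z : E) (hz : z ∈ unitCone) : rr z ≤ 1 := by
  rw [cone_iff] at hz
  obtain ⟨h1, h2, h3⟩ := hz
  have e : rr z = 4 * (((z 0).re ^ 2 + (z 1).re ^ 2 + (z 2).re ^ 2) *
      ((z 0).im ^ 2 + (z 1).im ^ 2 + (z 2).im ^ 2)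
      - ((z 0).re * (z 0).im + (z 1).re * (z 1).im + (z 2).re * (z 2).im) ^ 2) := by
    unfold rr m0 m1 m2; ring
  have hA : 0 ≤ (z 0).re ^ 2 + (z 1).re ^ 2 + (z 2).re ^ 2 := by positivity
  have hB : 0 ≤ (z 0).im ^ 2 + (z 1).im ^ 2 + (z 2).im ^ 2 := by positivity
  have hA' : (z 0).re ^ 2 + (z 1).re ^ 2 + (z 2).re ^ 2 ≤ 1 / 2 := by
    nlinarith [sq_nonneg (z 3).re, sq_nonneg (z 4).re]
  have hB' : (z 0).im ^ 2 + (z 1).im ^ 2 + (z 2).im ^ 2 ≤ 1 / 2 := by
    nlinarith [sq_nonneg (z 3).im, sq_nonneg (z 4).im]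
  rw [e]
  nlinarith [sq_nonneg ((z 0).re * (z 0).im + (z 1).re * (z 1).im + (z 2).re * (z 2).im),
    mul_le_mul hA' hB' hB (by norm_num)]

theorem Gi_smul (t : ℝ) (c : ℂ) (x : E) : Gi t (c • x) = c • Gi t x := Gm_smul _ _ _ _ _ _

theorem two_sub_den (t : ℝ) (z : E) : cc t z * den t z = 2 - den t z := by
  unfold cc
  rw [div_mul_cancel₀ _ (den_ne t z)]
  unfold den; ring

theorem ss_mul_den (t : ℝ) (z : E) : ss t z * den t z = 2 * (t * tau) := by
  unfold ss
  rw [div_mul_cancel₀ _ (den_ne t z)]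

/-- if the scalar is one, all of the first four coordinates vanish -/
theorem key_zero (z : E) (hz : z ∈ unitCone) (h : Rm 1 z = Gi 1 z) :
    ((z 0).re ^ 2 + (z 1).re ^ 2 + (z 2).re ^ 2 + (z 3).re ^ 2 = 0) ∧
    ((z 0).im ^ 2 + (z 1).im ^ 2 + (z 2).im ^ 2 + (z 3).im ^ 2 = 0) := by
  have hrr := rr_le z hz
  have hD : den 1 z = 1 + (15 / 8) ^ 2 * (m0 z ^ 2 + m1 z ^ 2 + m2 z ^ 2) := by
    unfold den rr tau; ring
  have hDpos := den_pos 1 z
  have hc := two_sub_den 1 z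
  have hs := ss_mul_den 1 z
  have hfac : 0 < 8 / 5 - 9 / 8 * (m0 z + m1 z) := by
    have h2 : (m0 z + m1 z) ^ 2 ≤ 2 := by
      unfold rr at hrr
      nlinarith [sq_nonneg (m0 z - m1 z), sq_nonneg (m2 z)]
    nlinarith [sq_nonneg (m0 z + m1 z), sq_nonneg (m0 z + m1 z - 64 / 45)]
  have H : ∀ i, (Rm 1 z) i = (Gi 1 z) i := fun i => congrFun h i
  have H0 := H 0
  have H1 := H 1
  have H2 := H 2
  have H3 := H 3
  simp only [Rm, rot, Gi, Gm, gp1, gq1, gu1, gv1, Matrix.cons_val_zero, Matrix.cons_val_one,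
    Matrix.cons_val] at H0 H1 H2 H3
  have R0 := congrArg Complex.re H0
  have R1 := congrArg Complex.re H1
  have R2 := congrArg Complex.re H2
  have R3 := congrArg Complex.re H3
  have I0 := congrArg Complex.im H0
  have I1 := congrArg Complex.im H1
  have I2 := congrArg Complex.im H2
  have I3 := congrArg Complex.im H3
  simp only [Complex.add_re, Complex.add_im, Complex.mul_re, Complex.mul_im, Complex.sub_re,
    Complex.sub_im, Complex.ofReal_re, Complex.ofReal_im, zero_mul, sub_zero, add_zero,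
    Complex.neg_re, Complex.neg_im, Complex.ofReal_neg, neg_zero, neg_neg] at R0 R1 R2 R3 I0 I1 I2 I3
  have tt : tau = 15 / 8 := rfl
  rw [tt] at hs
  constructor
  · have := real_alg (z 0).re (z 1).re (z 2).re (z 3).re (m0 z) (m1 z) (m2 z) (den 1 z) hD
      (m_perp_re z)
      (by linear_combination den 1 z * R0 - (z 0).re * hc - (m1 z * (z 2).re - m2 z * (z 1).re) * hs)
      (by linear_combination den 1 z * R1 - (z 1).re * hc - (m2 z * (z 0).re - m0 z * (z 2).re) * hs)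
      (by linear_combination den 1 z * R2 - (z 2).re * hc - (m0 z * (z 1).re - m1 z * (z 0).re) * hs)
      (by linear_combination den 1 z * R3)
    have h5 := mul_eq_zero.1 this
    rcases h5 with h5 | h5
    · rcases mul_eq_zero.1 h5 with h6 | h6
      · exact absurd h6 hDpos.ne'
      · exact h6
    · exact absurd h5 hfac.ne'
  · have := real_alg (z 0).im (z 1).im (z 2).im (z 3).im (m0 z) (m1 z) (m2 z) (den 1 z) hD
      (m_perp_im z)
      (by linear_combination den 1 z * I0 - (z 0).im * hc - (m1 z * (z 2).im - m2 z * (z 1).im) * hs)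
      (by linear_combination den 1 z * I1 - (z 1).im * hc - (m2 z * (z 0).im - m0 z * (z 2).im) * hs)
      (by linear_combination den 1 z * I2 - (z 2).im * hc - (m0 z * (z 1).im - m1 z * (z 0).im) * hs)
      (by linear_combination den 1 z * I3)
    have h5 := mul_eq_zero.1 this
    rcases h5 with h5 | h5
    · rcases mul_eq_zero.1 h5 with h6 | h6
      · exact absurd h6 hDpos.ne'
      · exact h6
    · exact absurd h5 hfac.ne'

theorem Rm_eq (z : E) (c : ℂ) (h : Psi (1, z) = c • z) : Rm 1 z = c • Gi 1 z := by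
  have h1 : Gi 1 (Psi (1, z)) = Rm 1 z := Gi_G 1 _
  rw [← h1, h, Gi_smul]

theorem z4_zero (z : E) (hz : z ∈ unitCone) (c : ℂ) (h : Psi (1, z) = c • z) : z 4 = 0 := by
  by_contra h4
  have h1 : z 4 = c * z 4 := by
    have := congrFun h 4
    simpa [Psi, G, Gm, Rm, rot] using this
  have hc : c = 1 := by
    have : (c - 1) * z 4 = 0 := by linear_combination -h1
    rcases mul_eq_zero.1 this with h2 | h2
    · linear_combination h2
    · exact absurd h2 h4
  have h2 := Rm_eq z c h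
  rw [hc, one_smul] at h2
  obtain ⟨ha, hb⟩ := key_zero z hz h2
  rw [cone_iff] at hz
  obtain ⟨h5, h6, h7⟩ := hz
  have ha' : (z 4).re ^ 2 = 1 / 2 := by linarith
  have hb' : (z 4).im ^ 2 = 1 / 2 := by linarith
  have r0 : (z 0).re = 0 := by nlinarith [sq_nonneg (z 0).re, sq_nonneg (z 1).re, sq_nonneg (z 2).re, sq_nonneg (z 3).re]
  have r1 : (z 1).re = 0 := by nlinarith [sq_nonneg (z 0).re, sq_nonneg (z 1).re, sq_nonneg (z 2).re, sq_nonneg (z 3).re]
  have r2 : (z 2).re = 0 := by nlinarith [sq_nonneg (z 0).re, sq_nonneg (z 1).re, sq_nonneg (z 2).re, sq_nonneg (z 3).re]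
  have r3 : (z 3).re = 0 := by nlinarith [sq_nonneg (z 0).re, sq_nonneg (z 1).re, sq_nonneg (z 2).re, sq_nonneg (z 3).re]
  rw [r0, r1, r2, r3] at h7
  have h8 : (z 4).re * (z 4).im = 0 := by linarith
  rcases mul_eq_zero.1 h8 with h9 | h9
  · rw [h9] at ha'; norm_num at ha'
  · rw [h9] at hb'; norm_num at hb'

theorem c_norm (z : E) (hz : z ∈ unitCone) (c : ℂ) (h : c • z ∈ unitCone) :
    c.re ^ 2 + c.im ^ 2 = 1 := by
  rw [cone_iff] at hz h
  obtain ⟨h1, -, -⟩ := hz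
  obtain ⟨h2, -, -⟩ := h
  simp only [Pi.smul_apply, smul_eq_mul, Complex.mul_re, Complex.mul_im] at h2
  linear_combination h2 - (c.re ^ 2 + c.im ^ 2) * h1

/-- transformation of the moment components under `Gi 1` -/
theorem m0_Gi (z : E) : m0 (Gi 1 z) =
    (m0 z + l0 z + 7 / 25 * (m0 z - l0 z) - 24 / 25 * (m2 z - l2 z)) / 2 := by
  simp only [m0, m1, m2, l0, l1, l2, Gi, Gm, gp1, gq1, gu1, gv1, Matrix.cons_val_zero, Matrix.cons_val_one,
    Matrix.cons_val, Complex.add_re, Complex.add_im, Complex.mul_re, Complex.mul_im, Complex.sub_re,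
    Complex.sub_im, Complex.ofReal_re, Complex.ofReal_im]
  ring

theorem m1_Gi (z : E) : m1 (Gi 1 z) =
    (7 / 25 * (m1 z + l1 z) + 24 / 25 * (m2 z + l2 z) + (m1 z - l1 z)) / 2 := by
  simp only [m0, m1, m2, l0, l1, l2, Gi, Gm, gp1, gq1, gu1, gv1, Matrix.cons_val_zero, Matrix.cons_val_one,
    Matrix.cons_val, Complex.add_re, Complex.add_im, Complex.mul_re, Complex.mul_im, Complex.sub_re,
    Complex.sub_im, Complex.ofReal_re, Complex.ofReal_im]
  ring

theorem m2_Gi (z : E) : m2 (Gi 1 z) =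
    (-(24 / 25) * (m1 z + l1 z) + 7 / 25 * (m2 z + l2 z) + 24 / 25 * (m0 z - l0 z)
      + 7 / 25 * (m2 z - l2 z)) / 2 := by
  simp only [m0, m1, m2, l0, l1, l2, Gi, Gm, gp1, gq1, gu1, gv1, Matrix.cons_val_zero, Matrix.cons_val_one,
    Matrix.cons_val, Complex.add_re, Complex.add_im, Complex.mul_re, Complex.mul_im, Complex.sub_re,
    Complex.sub_im, Complex.ofReal_re, Complex.ofReal_im]
  ring

theorem l2_Gi (z : E) : l2 (Gi 1 z) =
    (-(24 / 25) * (m1 z + l1 z) + 7 / 25 * (m2 z + l2 z) - 24 / 25 * (m0 z - l0 z)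
      - 7 / 25 * (m2 z - l2 z)) / 2 := by
  simp only [m0, m1, m2, l0, l1, l2, Gi, Gm, gp1, gq1, gu1, gv1, Matrix.cons_val_zero, Matrix.cons_val_one,
    Matrix.cons_val, Complex.add_re, Complex.add_im, Complex.mul_re, Complex.mul_im, Complex.sub_re,
    Complex.sub_im, Complex.ofReal_re, Complex.ofReal_im]
  ring

theorem l2_Rm (z : E) : l2 (Rm 1 z) = cc 1 z * l2 z + ss 1 z * (m0 z * l1 z - m1 z * l0 z) := by
  simp only [l0, l1, l2, Rm, rot, Matrix.cons_val_zero, Matrix.cons_val_one,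
    Matrix.cons_val, Complex.add_re, Complex.add_im, Complex.mul_re, Complex.mul_im, Complex.sub_re,
    Complex.sub_im, Complex.ofReal_re, Complex.ofReal_im]
  ring

/-- constraints on the cone with vanishing last coordinate -/
theorem ml_norm (z : E) (hz : z ∈ unitCone) (h4 : z 4 = 0) :
    (m0 z ^ 2 + m1 z ^ 2 + m2 z ^ 2 + l0 z ^ 2 + l1 z ^ 2 + l2 z ^ 2 = 1) ∧
    (m0 z * l0 z + m1 z * l1 z + m2 z * l2 z = 0) := by
  rw [cone_iff] at hz
  obtain ⟨h1, h2, h3⟩ := hz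
  simp only [h4, Complex.zero_re, Complex.zero_im] at h1 h2 h3
  have hp : (z 0).re ^ 2 + (z 1).re ^ 2 + (z 2).re ^ 2 + (z 3).re ^ 2 = 1 / 2 := by linarith
  have hq : (z 0).im ^ 2 + (z 1).im ^ 2 + (z 2).im ^ 2 + (z 3).im ^ 2 = 1 / 2 := by linarith
  have hd : (z 0).re * (z 0).im + (z 1).re * (z 1).im + (z 2).re * (z 2).im + (z 3).re * (z 3).im = 0 := by
    linarith
  constructor
  · unfold m0 m1 m2 l0 l1 l2
    linear_combination 4 * ((z 0).im ^ 2 + (z 1).im ^ 2 + (z 2).im ^ 2 + (z 3).im ^ 2) * hp + 2 * hq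
      - 4 * ((z 0).re * (z 0).im + (z 1).re * (z 1).im + (z 2).re * (z 2).im + (z 3).re * (z 3).im) * hd
  · unfold m0 m1 m2 l0 l1 l2
    ring

/-- the vector is an eigenvector of its moment matrix -/
theorem rows (z : E) (hz : z ∈ unitCone) (h4 : z 4 = 0) :
    ((m2 z : ℂ) * z 1 - (m1 z : ℂ) * z 2 - (l0 z : ℂ) * z 3 = Complex.I * z 0) ∧
    (-(m2 z : ℂ) * z 0 + (m0 z : ℂ) * z 2 - (l1 z : ℂ) * z 3 = Complex.I * z 1) ∧
    ((m1 z : ℂ) * z 0 - (m0 z : ℂ) * z 1 - (l2 z : ℂ) * z 3 = Complex.I * z 2) ∧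
    ((l0 z : ℂ) * z 0 + (l1 z : ℂ) * z 1 + (l2 z : ℂ) * z 2 = Complex.I * z 3) := by
  rw [cone_iff] at hz
  obtain ⟨h1, h2, h3⟩ := hz
  simp only [h4, Complex.zero_re, Complex.zero_im] at h1 h2 h3
  have hp : (z 0).re ^ 2 + (z 1).re ^ 2 + (z 2).re ^ 2 + (z 3).re ^ 2 = 1 / 2 := by linarith
  have hq : (z 0).im ^ 2 + (z 1).im ^ 2 + (z 2).im ^ 2 + (z 3).im ^ 2 = 1 / 2 := by linarith
  have hd : (z 0).re * (z 0).im + (z 1).re * (z 1).im + (z 2).re * (z 2).im + (z 3).re * (z 3).im = 0 := by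
    linarith
  refine ⟨?_, ?_, ?_, ?_⟩
  · apply Complex.ext
    · simp [m0, m1, m2, l0, l1, l2]
      linear_combination 2 * (z 0).re * hd - 2 * (z 0).im * hp
    · simp [m0, m1, m2, l0, l1, l2]
      linear_combination 2 * (z 0).re * hq - 2 * (z 0).im * hd
  · apply Complex.ext
    · simp [m0, m1, m2, l0, l1, l2]
      linear_combination 2 * (z 1).re * hd - 2 * (z 1).im * hp
    · simp [m0, m1, m2, l0, l1, l2]
      linear_combination 2 * (z 1).re * hq - 2 * (z 1).im * hd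
  · apply Complex.ext
    · simp [m0, m1, m2, l0, l1, l2]
      linear_combination 2 * (z 2).re * hd - 2 * (z 2).im * hp
    · simp [m0, m1, m2, l0, l1, l2]
      linear_combination 2 * (z 2).re * hq - 2 * (z 2).im * hd
  · apply Complex.ext
    · simp [m0, m1, m2, l0, l1, l2]
      linear_combination 2 * (z 3).re * hd - 2 * (z 3).im * hp
    · simp [m0, m1, m2, l0, l1, l2]
      linear_combination 2 * (z 3).re * hq - 2 * (z 3).im * hd

end Crest.Agent.H18.Quadric
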