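import Mathlib
import Crest.Agent.H18.Quadric6

/-!
Fixed lines of the time-one map: exactly three.
-/

set_option autoImplicit false
set_option linter.unusedSimpArgs false

namespace Crest.Agent.H18.Quadric

open Crest.GeometryTopology.Quadric

noncomputable def v1 : E := ![1, -1, ⟨-3 / 4, 5 / 4⟩, ⟨-3 / 4, -5 / 4⟩, 0]

noncomputable def v2 (s : ℝ) : E :=
  ![1, -1, ⟨(-75 + 15 * s) / 364, (-205 - 41 * s) / 364⟩, ⟨(-75 - 15 * s) / 364, (205 - 41 * s) / 364⟩, 0]

/-- the real algebra of the fixed point equations -/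
theorem real_solve (x0 y1 k : ℝ) (h1 : x0 ^ 2 + 25 / 16 * k ^ 2 = 1) (h2 : y1 ^ 2 + 25 / 16 * k ^ 2 = 1)
    (h3 : k ^ 2 - x0 * y1 + 4 / 5 * k = 0) :
    (k = -(4 / 5) ∧ x0 = 0 ∧ y1 = 0) ∨ (k = 20 / 41 ∧ y1 = x0 ∧ x0 ^ 2 = 1056 / 1681) := by
  have h4 : (y1 - x0) * (y1 + x0) = 0 := by linear_combination h2 - h1
  rcases mul_eq_zero.1 h4 with h5 | h5
  · have h6 : y1 = x0 := by linarith
    subst h6
    have h7 : (k + 4 / 5) * (k - 20 / 41) = 0 := by
      linear_combination 16 / 41 * h3 + 16 / 41 * h1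
    rcases mul_eq_zero.1 h7 with h8 | h8
    · have h9 : k = -(4 / 5) := by linarith
      subst h9
      have h10 : y1 ^ 2 = 0 := by linear_combination h1
      have h11 : y1 = 0 := by simpa using h10
      exact Or.inl ⟨rfl, h11, h11⟩
    · have h9 : k = 20 / 41 := by linarith
      subst h9
      exact Or.inr ⟨rfl, rfl, by linear_combination h1⟩
  · have h6 : y1 = -x0 := by linarith
    subst h6
    have h7 : (k + 4 / 5) * (k - 20 / 9) = 0 := by
      linear_combination -16 / 9 * h3 + 16 / 9 * h1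
    rcases mul_eq_zero.1 h7 with h8 | h8
    · have h9 : k = -(4 / 5) := by linarith
      subst h9
      have h10 : x0 ^ 2 = 0 := by linear_combination h1
      have h11 : x0 = 0 := by simpa using h10
      exact Or.inl ⟨rfl, h11, by rw [h11]; simp⟩
    · have h9 : k = 20 / 9 := by linarith
      subst h9
      nlinarith [sq_nonneg x0]

/-- solving the linear system -/
theorem lin_solve (z : E) (mu nu ka : ℂ)
    (r0 : -mu * z 2 + nu * z 3 = Complex.I * z 0)
    (r1 : mu * z 2 - nu * z 3 = Complex.I * z 1)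
    (r2 : mu * z 0 - mu * z 1 - ka * z 3 = Complex.I * z 2)
    (r3 : -nu * z 0 + nu * z 1 + ka * z 2 = Complex.I * z 3) :
    z 1 = - z 0 ∧ (1 - ka ^ 2) * z 2 = (-2 * Complex.I * mu - 2 * ka * nu) * z 0 ∧
      (1 - ka ^ 2) * z 3 = (2 * Complex.I * nu - 2 * ka * mu) * z 0 := by
  have hI : Complex.I ^ 2 = -1 := Complex.I_sq
  have h1 : z 1 = - z 0 := by
    linear_combination Complex.I * r0 + Complex.I * r1 + (z 0 + z 1) * hI
  refine ⟨h1, ?_, ?_⟩
  · rw [h1] at r2 r3
    linear_combination Complex.I * r2 - ka * r3 + z 2 * hI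
  · rw [h1] at r2 r3
    linear_combination Complex.I * r3 + ka * r2 + z 3 * hI

theorem fixed_class (z : E) (hz : z ∈ unitCone) (c : ℂ) (h : Psi (1, z) = c • z) :
    z = z 0 • v1 ∨ z = z 0 • v2 (Real.sqrt 66) ∨ z = z 0 • v2 (-Real.sqrt 66) := by
  have h4 := z4_zero z hz c h
  have hc : c.re ^ 2 + c.im ^ 2 = 1 := by
    apply c_norm z hz
    rw [← h]
    exact Psi_cone 1 z hz
  have hR := Rm_eq z c h
  obtain ⟨e0, e1, e2⟩ := m_Rm 1 z
  have f0 : m0 z = m0 (Gi 1 z) := by rw [← e0, hR, m0_smul c hc]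
  have f1 : m1 z = m1 (Gi 1 z) := by rw [← e1, hR, m1_smul c hc]
  have f2 : m2 z = m2 (Gi 1 z) := by rw [← e2, hR, m2_smul c hc]
  have f3 : l2 (Rm 1 z) = l2 (Gi 1 z) := by rw [hR, l2_smul c hc]
  rw [m0_Gi] at f0
  rw [m1_Gi] at f1
  rw [m2_Gi] at f2
  rw [l2_Gi, l2_Rm] at f3
  obtain ⟨n1, n2⟩ := ml_norm z hz h4
  obtain ⟨k, hk⟩ : ∃ k, k = m1 z + l1 z := ⟨_, rfl⟩
  obtain ⟨x0, hx0⟩ : ∃ x, x = m0 z + l0 z := ⟨_, rfl⟩
  obtain ⟨y1, hy1⟩ : ∃ x, x = m1 z - l1 z := ⟨_, rfl⟩
  have g1 : m0 z - l0 z = k := by linarith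
  have g2 : m2 z = 0 := by linarith
  have g3 : l2 z = 3 / 4 * k := by linarith
  have a0 : m0 z = (x0 + k) / 2 := by linarith
  have a1 : m1 z = (k + y1) / 2 := by linarith
  have a2 : l0 z = (x0 - k) / 2 := by linarith
  have a3 : l1 z = (k - y1) / 2 := by linarith
  have hcc := two_sub_den 1 z
  have hss := ss_mul_den 1 z
  have tt : tau = 15 / 8 := rfl
  rw [tt] at hss
  have hD := den_ne 1 z
  rw [a0, a1, a2, a3, g2, g3] at n1 n2 f3
  have h1 : x0 ^ 2 + 25 / 16 * k ^ 2 = 1 := by linear_combination n1 + 2 * n2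
  have h2 : y1 ^ 2 + 25 / 16 * k ^ 2 = 1 := by linear_combination n1 - 2 * n2
  have h3 : k ^ 2 - x0 * y1 + 4 / 5 * k = 0 := by
    have : (k ^ 2 - x0 * y1 + 4 / 5 * k) = 0 := by
      linear_combination 8 / 15 * (den 1 z * f3 - 3 / 4 * k * hcc - (k ^ 2 - x0 * y1) / 2 * hss)
    exact this
  obtain ⟨r0, r1, r2, r3⟩ := rows z hz h4
  simp only [a0, a1, a2, a3, g2, g3] at r0 r1 r2 r3
  rcases real_solve x0 y1 k h1 h2 h3 with ⟨s1, s2, s3⟩ | ⟨s1, s2, s3⟩
  · left
    subst s1 s2 s3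
    obtain ⟨t1, t2, t3⟩ := lin_solve z (-(2 / 5)) (-(2 / 5)) (-(3 / 5))
      (by push_cast at r0; linear_combination r0) (by push_cast at r1; linear_combination r1)
      (by push_cast at r2; linear_combination r2) (by push_cast at r3; linear_combination r3)
    ext i
    have w2 : (v1 2) = -3 / 4 + 5 / 4 * Complex.I := by
      simp [v1]; apply Complex.ext <;> simp
    have w3 : (v1 3) = -3 / 4 - 5 / 4 * Complex.I := by
      simp [v1]; apply Complex.ext <;> simp; norm_num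
    fin_cases i
    · simp [v1]
    · simp [v1, t1]
    · show z 2 = z 0 * v1 2
      rw [w2]; linear_combination 25 / 16 * t2
    · show z 3 = z 0 * v1 3
      rw [w3]; linear_combination 25 / 16 * t3
    · simp [v1, h4]
  · right
    have hs : (41 / 4 * x0) ^ 2 = 66 := by linear_combination (41 / 4) ^ 2 * s3
    have hgen : z = z 0 • v2 (41 / 4 * x0) := by
      rw [s1] at r0 r1 r2 r3
      obtain ⟨t1, t2, t3⟩ := lin_solve z (((x0 + 20 / 41) / 2 : ℝ) : ℂ) ((((20 / 41) - x0) / 2 : ℝ) : ℂ)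
        (15 / 41)
        (by rw [s2] at r0; push_cast at r0 ⊢; linear_combination r0)
        (by rw [s2] at r1; push_cast at r1 ⊢; linear_combination r1)
        (by rw [s2] at r2; push_cast at r2 ⊢; linear_combination r2)
        (by rw [s2] at r3; push_cast at r3 ⊢; linear_combination r3)
      ext i
      have w2 : (v2 (41 / 4 * x0) 2) = (-75 + 15 * (41 / 4 * (x0 : ℂ))) / 364 +
          (-205 - 41 * (41 / 4 * (x0 : ℂ))) / 364 * Complex.I := by
        simp [v2]; apply Complex.ext <;> simp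
      have w3 : (v2 (41 / 4 * x0) 3) = (-75 - 15 * (41 / 4 * (x0 : ℂ))) / 364 +
          (205 - 41 * (41 / 4 * (x0 : ℂ))) / 364 * Complex.I := by
        simp [v2]; apply Complex.ext <;> simp
      fin_cases i
      · simp [v2]
      · simp [v2, t1]
      · show z 2 = z 0 * v2 (41 / 4 * x0) 2
        rw [w2]; push_cast at t2; linear_combination 1681 / 1456 * t2
      · show z 3 = z 0 * v2 (41 / 4 * x0) 3
        rw [w3]; push_cast at t3; linear_combination 1681 / 1456 * t3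
      · simp [v2, h4]
    have hs2 : (41 / 4 * x0 - Real.sqrt 66) * (41 / 4 * x0 + Real.sqrt 66) = 0 := by
      have := Real.sq_sqrt (show (0:ℝ) ≤ 66 by norm_num)
      linear_combination hs - this
    rcases mul_eq_zero.1 hs2 with h8 | h8
    · left
      rw [show Real.sqrt 66 = 41 / 4 * x0 by linarith]; exact hgen
    · right
      rw [show -Real.sqrt 66 = 41 / 4 * x0 by linarith]; exact hgen

end Crest.Agent.H18.Quadric
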