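import Mathlib
import Crest.Agent.H18.Quadric7

/-!
Existence of the three fixed lines, and the degenerate one.
-/

set_option autoImplicit false
set_option linter.unusedSimpArgs false

namespace Crest.Agent.H18.Quadric

open Crest.GeometryTopology.Quadric

noncomputable def w1 : E := ![2 / 5, -(2 / 5), ⟨-3 / 10, 1 / 2⟩, ⟨-3 / 10, -1 / 2⟩, 0]

theorem w1_eq : w1 = (2 / 5 : ℂ) • v1 := by
  ext i
  fin_cases i
  · simp [w1, v1]
  · simp [w1, v1]
  · simp only [w1, v1]; apply Complex.ext <;> simp <;> norm_num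
  · simp only [w1, v1]; apply Complex.ext <;> simp <;> norm_num
  · simp [w1, v1]

theorem w1_cone : w1 ∈ unitCone := by
  rw [cone_iff]
  simp [w1]
  norm_num

theorem m0_w1 : m0 w1 = -(2 / 5) := by simp [m0, w1] <;> norm_num
theorem m1_w1 : m1 w1 = -(2 / 5) := by simp [m1, w1] <;> norm_num
theorem m2_w1 : m2 w1 = 0 := by simp [m2, w1]
theorem rr_w1 : rr w1 = 8 / 25 := by unfold rr; rw [m0_w1, m1_w1, m2_w1]; norm_num
theorem den_w1 : den 1 w1 = 17 / 8 := by unfold den tau; rw [rr_w1]; norm_num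
theorem cc_w1 : cc 1 w1 = -(1 / 17) := by unfold cc; rw [den_w1, rr_w1]; unfold tau; norm_num
theorem ss_w1 : ss 1 w1 = 30 / 17 := by unfold ss; rw [den_w1]; unfold tau; norm_num

theorem Psi_w1 : Psi (1, w1) = (⟨-8 / 17, 15 / 17⟩ : ℂ) • w1 := by
  unfold Psi G Rm
  simp only
  rw [cc_w1, ss_w1, m0_w1, m1_w1, m2_w1, gp1, gq1, gu1, gv1]
  ext i
  fin_cases i <;> simp only [Gm, rot, w1] <;> apply Complex.ext <;> simp <;> norm_num

noncomputable def dir : E := ![1, 1, 0, 0, 0]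

theorem rr_line_w1 : HasDerivAt (fun s : ℝ => rr (w1 + s • dir)) 0 0 := by
  refine (rr_line_deriv w1 dir).congr_deriv ?_
  rw [m0_w1, m1_w1, m2_w1]
  simp [dm, w1, dir]

theorem den_line_w1 : HasDerivAt (fun s : ℝ => den 1 (w1 + s • dir)) 0 0 := by
  unfold den
  exact ((rr_line_w1.const_mul ((1 * tau) ^ 2)).const_add 1).congr_deriv (by simp)

theorem cc_line_w1 : HasDerivAt (fun s : ℝ => cc 1 (w1 + s • dir)) 0 0 := by
  unfold cc
  exact (((rr_line_w1.const_mul ((1 * tau) ^ 2)).const_sub 1).div den_line_w1 (den_ne _ _)).congr_deriv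
    (by simp)

theorem ss_line_w1 : HasDerivAt (fun s : ℝ => ss 1 (w1 + s • dir)) 0 0 := by
  unfold ss
  exact ((hasDerivAt_const (0:ℝ) (2 * (1 * tau))).div den_line_w1 (den_ne _ _)).congr_deriv
    (by simp)

theorem Rm_line_w1 : HasDerivAt (fun s : ℝ => Rm 1 (w1 + s • dir)) ((⟨8 / 17, -15 / 17⟩ : ℂ) • dir) 0 := by
  have hc := cc_line_w1.ofReal_comp
  have hs := ss_line_w1.ofReal_comp
  have hid : HasDerivAt (fun s : ℝ => (s : ℂ)) 1 0 := by
    simpa using (hasDerivAt_id (0:ℝ)).ofReal_comp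
  have e0 : ∀ s : ℝ, m0 (w1 + s • dir) = -(2 / 5) + s := by
    intro s; simp [m0, w1, dir]; ring
  have e1 : ∀ s : ℝ, m1 (w1 + s • dir) = -(2 / 5) - s := by
    intro s; simp [m1, w1, dir]; ring
  have e2 : ∀ s : ℝ, m2 (w1 + s • dir) = 0 := by
    intro s; simp [m2, w1, dir]
  rw [hasDerivAt_pi]
  have key : ∀ (f g : ℝ → ℂ) (f' g' : ℂ), HasDerivAt f f' 0 → HasDerivAt g g' 0 →
      HasDerivAt (fun s : ℝ => (cc 1 (w1 + s • dir) : ℂ) * f s + (ss 1 (w1 + s • dir) : ℂ) * g s)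
        (-(1 / 17) * f' + 30 / 17 * g') 0 := by
    intro f g f' g' hf hg
    refine ((hc.mul hf).add (hs.mul hg)).congr_deriv ?_
    simp [cc_w1, ss_w1]
  intro i
  fin_cases i
  · have h1 : HasDerivAt (fun s : ℝ => (2 / 5 : ℂ) + s) 1 0 := hid.const_add _
    have h2 : HasDerivAt (fun s : ℝ => ((-(2 / 5) - s : ℂ)) * (⟨-3 / 10, 1 / 2⟩ : ℂ)) (-1 * (⟨-3 / 10, 1 / 2⟩ : ℂ)) 0 :=
      (hid.const_sub _).mul_const _
    refine ((key _ _ _ _ h1 h2).congr_deriv ?_).congr_of_eventuallyEq ?_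
    · simp only [dir]; apply Complex.ext <;> simp <;> norm_num
    · refine Filter.Eventually.of_forall fun s => ?_
      simp only [Rm, rot, e0, e1, e2]
      simp [w1, dir]
  · have h1 : HasDerivAt (fun s : ℝ => (-(2 / 5) : ℂ) + s) 1 0 := hid.const_add _
    have h2 : HasDerivAt (fun s : ℝ => ((2 / 5 - s : ℂ)) * (⟨-3 / 10, 1 / 2⟩ : ℂ)) (-1 * (⟨-3 / 10, 1 / 2⟩ : ℂ)) 0 :=
      (hid.const_sub _).mul_const _
    refine ((key _ _ _ _ h1 h2).congr_deriv ?_).congr_of_eventuallyEq ?_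
    · simp only [dir]; apply Complex.ext <;> simp <;> norm_num
    · refine Filter.Eventually.of_forall fun s => ?_
      simp only [Rm, rot, e0, e1, e2]
      simp [w1, dir]
      ring
  · have h1 : HasDerivAt (fun s : ℝ => (⟨-3 / 10, 1 / 2⟩ : ℂ)) 0 0 := hasDerivAt_const _ _
    have h2 : HasDerivAt (fun s : ℝ => 8 / 25 + 2 * (s : ℂ) ^ 2) (2 * (2 * ((0:ℝ):ℂ) ^ 1 * 1)) 0 :=
      (((hid.pow 2).const_mul 2).const_add _).congr_deriv (by simp)
    refine ((key _ _ _ _ h1 h2).congr_deriv ?_).congr_of_eventuallyEq ?_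
    · simp [dir]
    · refine Filter.Eventually.of_forall fun s => ?_
      simp only [Rm, rot, e0, e1, e2]
      simp [w1, dir]
      left; ring
  · simpa [Rm, rot, w1, dir] using hasDerivAt_const (0:ℝ) (⟨-3 / 10, -1 / 2⟩ : ℂ)
  · simpa [Rm, rot, w1, dir] using hasDerivAt_const (0:ℝ) (0:ℂ)

theorem G1_deriv {f : ℝ → E} {f' : E} (t : ℝ) (hf : HasDerivAt f f' t) :
    HasDerivAt (fun s => G 1 (f s)) (G 1 f') t := by
  rw [hasDerivAt_pi] at hf ⊢
  intro i
  fin_cases i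
  · exact ((((hf 0).const_mul (gp 1 : ℂ)).add ((hf 3).const_mul (gq 1 : ℂ))).add
      ((hf 2).const_mul (gu 1 : ℂ))).add ((hf 1).const_mul (gv 1 : ℂ))
  · exact ((((hf 1).const_mul (gp 1 : ℂ)).sub ((hf 2).const_mul (gq 1 : ℂ))).sub
      ((hf 3).const_mul (gu 1 : ℂ))).add ((hf 0).const_mul (gv 1 : ℂ))
  · exact ((((hf 2).const_mul (gp 1 : ℂ)).add ((hf 1).const_mul (gq 1 : ℂ))).sub
      ((hf 0).const_mul (gu 1 : ℂ))).sub ((hf 3).const_mul (gv 1 : ℂ))
  · exact ((((hf 3).const_mul (gp 1 : ℂ)).sub ((hf 0).const_mul (gq 1 : ℂ))).add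
      ((hf 1).const_mul (gu 1 : ℂ))).sub ((hf 2).const_mul (gv 1 : ℂ))
  · exact hf 4

theorem G1_dir : G 1 ((⟨8 / 17, -15 / 17⟩ : ℂ) • dir) = (⟨-8 / 17, 15 / 17⟩ : ℂ) • dir := by
  unfold G
  rw [gp1, gq1, gu1, gv1]
  ext i
  fin_cases i <;> simp only [Gm, dir] <;> apply Complex.ext <;> simp <;> norm_num

theorem fderiv_w1 : fderiv ℝ (fun x : E => Psi (1, x)) w1 dir = (⟨-8 / 17, 15 / 17⟩ : ℂ) • dir := by
  have h1 : ContDiff ℝ 1 (fun x : E => Psi (1, x)) := contDiff_Psi.comp (by fun_prop)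
  have h2 : DifferentiableAt ℝ (fun x : E => Psi (1, x)) w1 := h1.differentiable (by norm_num) w1
  have h3 := h2.hasFDerivAt
  have h4 : HasDerivAt (fun s : ℝ => w1 + s • dir) dir 0 := by
    have := ((hasDerivAt_id (0:ℝ)).smul_const dir).const_add w1
    simpa using this
  have h5 : HasFDerivAt (fun x : E => Psi (1, x)) (fderiv ℝ (fun x : E => Psi (1, x)) w1)
      (w1 + (0 : ℝ) • dir) := by simpa using h3
  have h6 := h5.comp_hasDerivAt (0 : ℝ) h4
  have h7 := G1_deriv 0 Rm_line_w1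
  rw [G1_dir] at h7
  exact h6.unique h7

theorem degenerate : HasDegenerateFixedPoint theLift := by
  refine ⟨w1, w1_cone, ⟨-8 / 17, 15 / 17⟩, Psi_w1, dir, ?_, ?_, 0, ?_⟩
  · simp [coneTangent, herm, Fin.sum_univ_five, w1, dir]
  · intro r h
    have h0 := congrFun h 0
    have := congrArg Complex.re h0
    simp [dir, w1] at this
  · show fderiv ℝ (fun x : E => Psi (1, x)) w1 dir = _
    rw [fderiv_w1]
    simp

end Crest.Agent.H18.Quadric
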