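import Mathlib
import Crest.Agent.H18.Quadric8

/-!
Existence of the other two fixed lines, and the count.
-/

set_option autoImplicit false
set_option linter.unusedSimpArgs false

namespace Crest.Agent.H18.Quadric

open Crest.GeometryTopology.Quadric

noncomputable def w2 (l s : ℝ) : E :=
  ![(l : ℂ), -(l : ℂ), ⟨l * ((-75 + 15 * s) / 364), l * ((-205 - 41 * s) / 364)⟩,
    ⟨l * ((-75 - 15 * s) / 364), l * ((205 - 41 * s) / 364)⟩, 0]

theorem w2_eq (l s : ℝ) : w2 l s = (l : ℂ) • v2 s := by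
  ext i
  fin_cases i
  · simp [w2, v2]
  · simp [w2, v2]
  · simp only [w2, v2]; apply Complex.ext <;> simp
  · simp only [w2, v2]; apply Complex.ext <;> simp
  · simp [w2, v2]

section
variable (l s : ℝ) (hl : l ^ 2 = 364 / 1681) (hs : s ^ 2 = 66)
include hl

theorem m0_w2 : m0 (w2 l s) = (10 + 2 * s) / 41 := by
  simp [m0, w2]
  linear_combination (2 * (205 + 41 * s) / 364) * hl

theorem m1_w2 : m1 (w2 l s) = (10 + 2 * s) / 41 := by
  simp [m1, w2]
  linear_combination (2 * (205 + 41 * s) / 364) * hl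

omit hl in
theorem m2_w2 : m2 (w2 l s) = 0 := by simp [m2, w2]

theorem rr_w2 : rr (w2 l s) = 2 * ((10 + 2 * s) / 41) ^ 2 := by
  unfold rr; rw [m0_w2 l s hl, m1_w2 l s hl, m2_w2]; ring

include hs

theorem w2_cone : w2 l s ∈ unitCone := by
  rw [cone_iff]
  simp [w2]
  refine ⟨?_, ?_, ?_⟩
  · linear_combination (2 + (95300 + 3812 * s ^ 2) / 132496) * hl + 364 / 1681 * 3812 / 132496 * hs
  · linear_combination l ^ 2 * (-2912 / 132496) * hs
  · ring

theorem cc_w2 : cc 1 (w2 l s) = (56959 - 36000 * s) / 485809 := by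
  unfold cc
  rw [div_eq_iff (den_ne _ _)]
  unfold den tau
  rw [rr_w2 l s hl]
  linear_combination ((36000 * s - 56959 - 485809) / 485809 * (225 / 64) * 8 / 1681 + 36000 / 485809 * (225 / 64) * 80 / 1681) * hs

theorem ss_w2 : ss 1 (w2 l s) = (1017690 - 67500 * s) / 485809 := by
  unfold ss
  rw [div_eq_iff (den_ne _ _)]
  unfold den tau
  rw [rr_w2 l s hl]
  linear_combination (3796875 / 1633289858 * s - 38552625 / 3266579716) * hs

theorem Psi_w2 : Psi (1, w2 l s) =
    (⟨1352 / 7225 + 144 / 1445 * s, -507 / 1445 + 384 / 7225 * s⟩ : ℂ) • w2 l s := by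
  unfold Psi G Rm
  simp only
  rw [cc_w2 l s hl hs, ss_w2 l s hl hs, m0_w2 l s hl, m1_w2 l s hl, m2_w2, gp1, gq1, gu1, gv1]
  have hs3 : s ^ 3 = 66 * s := by linear_combination s * hs
  have hs4 : s ^ 4 = 66 * 66 := by linear_combination (s ^ 2 + 66) * hs
  ext i
  fin_cases i <;> simp only [Gm, rot, w2] <;> apply Complex.ext <;> simp <;> ring_nf <;>
    simp only [hs, hs3, hs4] <;> ring

end

end Crest.Agent.H18.Quadric
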